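import Vale.Agent.P205.CT
import Vale.Agent.P205.X1
import Vale.Agent.P205.H12

open scoped Manifold ContDiff

namespace Vale.Agent.Results.P205.Full

/-- smooth Riemannian metrics on a smooth manifold `M` modelled on `E` -/
abbrev SmoothMetric (E : Type) [NormedAddCommGroup E] [NormedSpace ℝ E] (M : Type*)
    [TopologicalSpace M] [ChartedSpace E M] [IsManifold 𝓘(ℝ, E) ∞ M] :=
  Bundle.ContMDiffRiemannianMetric 𝓘(ℝ, E) ∞ E (fun x : M => TangentSpace 𝓘(ℝ, E) x)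

/-- `F` is a smooth isometric immersion of `(M, g)` into the inner product space `V` -/
def IsIsometricImmersion {E : Type} [NormedAddCommGroup E] [NormedSpace ℝ E] {M : Type*}
    [TopologicalSpace M] [ChartedSpace E M] [IsManifold 𝓘(ℝ, E) ∞ M] {V : Type}
    [NormedAddCommGroup V] [InnerProductSpace ℝ V] (g : SmoothMetric E M) (F : M → V) : Prop :=
  ContMDiff 𝓘(ℝ, E) 𝓘(ℝ, V) ∞ F ∧ ∀ (x : M) (v w : TangentSpace 𝓘(ℝ, E) x),
    @inner ℝ V _ (mfderiv 𝓘(ℝ, E) 𝓘(ℝ, V) F x v) (mfderiv 𝓘(ℝ, E) 𝓘(ℝ, V) F x w) = g.inner x v w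

theorem result {M : Type*} [TopologicalSpace M] [T2Space M] [CompactSpace M]
    [ChartedSpace (EuclideanSpace ℝ (Fin 2)) M] [IsManifold (𝓡 2) ∞ M]
    (g : SmoothMetric (EuclideanSpace ℝ (Fin 2)) M) :
    ∃ F : M → EuclideanSpace ℝ (Fin 4), IsIsometricImmersion g F :=
  Vale.Agent.P205.of_core0 (fun A g hs hp => by
    obtain ⟨ι, h1, h2⟩ := Vale.Agent.P205.exists_imm A
    exact Vale.Agent.P205.core M A g ι hs hp h1 h2) g

end Vale.Agent.Results.P205.Full
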